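import Vale.Agent.P340.Defs

/-!
# P340: maps of sorts, finite parts of specifications
-/

namespace Vale.Agent.P340

open Tm

universe u v

variable {S : Type u} {T : Type v}

/-- Change of sorts. -/
def mapT (h : S → T) : Tm S → Tm T
  | var n => var n
  | sort s => sort (h s)
  | app M N => app (mapT h M) (mapT h N)
  | lam A M => lam (mapT h A) (mapT h M)
  | pi A B => pi (mapT h A) (mapT h B)

theorem map_lift (h : S → T) (M : Tm S) : ∀ k, mapT h (lift k M) = lift k (mapT h M) := by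
  induction M with
  | var n => intro k; simp only [lift, mapT]; split_ifs <;> rfl
  | sort s => intro k; rfl
  | app M N ih1 ih2 => intro k; simp only [lift, mapT, ih1, ih2]
  | lam A M ih1 ih2 => intro k; simp only [lift, mapT, ih1, ih2]
  | pi A M ih1 ih2 => intro k; simp only [lift, mapT, ih1, ih2]

theorem map_subst (h : S → T) (M : Tm S) :
    ∀ k N, mapT h (subst k N M) = subst k (mapT h N) (mapT h M) := by
  induction M with
  | var n => intro k N; simp only [subst, mapT]; split_ifs <;> rfl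
  | sort s => intro k N; rfl
  | app P Q ih1 ih2 => intro k N; simp only [subst, mapT, ih1, ih2]
  | lam A M ih1 ih2 => intro k N; simp only [subst, mapT, ih1, ih2, map_lift]
  | pi A M ih1 ih2 => intro k N; simp only [subst, mapT, ih1, ih2, map_lift]

theorem step_map (h : S → T) {M N : Tm S} (hs : Step M N) : Step (mapT h M) (mapT h N) := by
  induction hs with
  | beta A M N => rw [map_subst]; exact Step.beta _ _ _
  | appL N _ ih => exact Step.appL _ ih
  | appR M _ ih => exact Step.appR _ ih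
  | lamL M _ ih => exact Step.lamL _ ih
  | lamR A _ ih => exact Step.lamR _ ih
  | piL B _ ih => exact Step.piL _ ih
  | piR A _ ih => exact Step.piR _ ih

theorem step_back (h : S → T) : ∀ (M : Tm S) (N' : Tm T), Step (mapT h M) N' →
    ∃ N, Step M N ∧ mapT h N = N' := by
  intro M
  induction M with
  | var n => intro N' hs; cases hs
  | sort s => intro N' hs; cases hs
  | app P Q ih1 ih2 =>
    intro N' hs
    simp only [mapT] at hs
    generalize hP : mapT h P = P' at hs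
    cases hs with
    | beta A M N =>
      cases P with
      | lam A0 M0 =>
        simp only [mapT, lam.injEq] at hP
        obtain ⟨hA, hM⟩ := hP
        refine ⟨subst 0 Q M0, Step.beta _ _ _, ?_⟩
        rw [map_subst, hM]
      | var n => simp [mapT] at hP
      | sort s => simp [mapT] at hP
      | app a b => simp [mapT] at hP
      | pi a b => simp [mapT] at hP
    | appL N hs =>
      obtain ⟨P1, h1, h2⟩ := ih1 _ (hP ▸ hs)
      exact ⟨app P1 Q, Step.appL _ h1, by simp only [mapT, h2]⟩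
    | appR M hs =>
      obtain ⟨Q1, h1, h2⟩ := ih2 _ hs
      exact ⟨app P Q1, Step.appR _ h1, by simp only [mapT, h2, hP]⟩
  | lam A M ih1 ih2 =>
    intro N' hs
    simp only [mapT] at hs
    cases hs with
    | lamL M hs =>
      obtain ⟨P1, h1, h2⟩ := ih1 _ hs
      exact ⟨lam P1 _, Step.lamL _ h1, by simp only [mapT, h2]⟩
    | lamR A hs =>
      obtain ⟨Q1, h1, h2⟩ := ih2 _ hs
      exact ⟨lam _ Q1, Step.lamR _ h1, by simp only [mapT, h2]⟩
  | pi A M ih1 ih2 =>
    intro N' hs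
    simp only [mapT] at hs
    cases hs with
    | piL M hs =>
      obtain ⟨P1, h1, h2⟩ := ih1 _ hs
      exact ⟨pi P1 _, Step.piL _ h1, by simp only [mapT, h2]⟩
    | piR A hs =>
      obtain ⟨Q1, h1, h2⟩ := ih2 _ hs
      exact ⟨pi _ Q1, Step.piR _ h1, by simp only [mapT, h2]⟩

theorem red_back (h : S → T) (M : Tm S) {N' : Tm T} (hs : Relation.ReflTransGen Step (mapT h M) N') :
    ∃ N, Relation.ReflTransGen Step M N ∧ mapT h N = N' := by
  induction hs with
  | refl => exact ⟨M, Relation.ReflTransGen.refl, rfl⟩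
  | tail _ hs ih =>
    obtain ⟨N, h1, h2⟩ := ih
    obtain ⟨N1, h3, h4⟩ := step_back h N _ (h2 ▸ hs)
    exact ⟨N1, h1.tail h3, h4⟩

theorem conv_map (h : S → T) {A B : Tm S} (hc : Relation.EqvGen Step A B) :
    Relation.EqvGen Step (mapT h A) (mapT h B) := by
  induction hc with
  | rel _ _ hs => exact Relation.EqvGen.rel _ _ (step_map h hs)
  | refl _ => exact Relation.EqvGen.refl _
  | symm _ _ _ ih => exact Relation.EqvGen.symm _ _ ih
  | trans _ _ _ _ _ ih1 ih2 => exact Relation.EqvGen.trans _ _ _ ih1 ih2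

theorem typ_map {h : S → T} {P : Spec S} {Q : Spec T} (hm : IsMorphism h P Q)
    {Γ : List (Tm S)} {M B : Tm S} (ht : Typ P Γ M B) :
    Typ Q (Γ.map (mapT h)) (mapT h M) (mapT h B) := by
  induction ht with
  | ax ha => exact Typ.ax (hm.1 _ _ ha)
  | var _ ih => rw [List.map_cons, map_lift]; exact Typ.var ih
  | weak _ _ ih1 ih2 => rw [List.map_cons, map_lift, map_lift]; exact Typ.weak ih1 ih2
  | prod _ _ hr ih1 ih2 => exact Typ.prod ih1 ih2 (hm.2 _ _ _ hr)
  | abs _ _ ih1 ih2 => exact Typ.abs ih1 ih2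
  | app _ _ ih1 ih2 => rw [map_subst]; exact Typ.app ih1 ih2
  | conv _ _ hc ih1 ih2 => exact Typ.conv ih1 ih2 (conv_map h hc)

theorem legal_map {h : S → T} {P : Spec S} {Q : Spec T} (hm : IsMorphism h P Q)
    {M : Tm S} (hl : Legal P M) : Legal Q (mapT h M) := by
  obtain ⟨Γ, B, h1 | h1⟩ := hl
  · exact ⟨_, _, Or.inl (typ_map hm h1)⟩
  · exact ⟨_, _, Or.inr (typ_map hm h1)⟩

theorem wn_of_morphism {h : S → T} {P : Spec S} {Q : Spec T} (hm : IsMorphism h P Q)
    (hQ : WN Q) : WN P := by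
  intro M hl
  obtain ⟨N', h1, h2⟩ := hQ _ (legal_map hm hl)
  obtain ⟨N, h3, h4⟩ := red_back h M h1
  exact ⟨N, h3, fun N1 hs => h2 _ (h4 ▸ step_map h hs)⟩

theorem sn_of_morphism {h : S → T} {P : Spec S} {Q : Spec T} (hm : IsMorphism h P Q)
    (hQ : SN Q) : SN P := by
  rintro M hl ⟨f, h0, hf⟩
  exact hQ _ (legal_map hm hl) ⟨fun n => mapT h (f n), congrArg (mapT h) h0, fun n => step_map h (hf n)⟩

theorem typ_mono {P Q : Spec S} (hPQ : Sub P Q) {Γ : List (Tm S)} {M B : Tm S}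
    (ht : Typ P Γ M B) : Typ Q Γ M B := by
  induction ht with
  | ax ha => exact Typ.ax (hPQ.1 ha)
  | var _ ih => exact Typ.var ih
  | weak _ _ ih1 ih2 => exact Typ.weak ih1 ih2
  | prod _ _ hr ih1 ih2 => exact Typ.prod ih1 ih2 (hPQ.2 hr)
  | abs _ _ ih1 ih2 => exact Typ.abs ih1 ih2
  | app _ _ ih1 ih2 => exact Typ.app ih1 ih2
  | conv _ _ hc ih1 ih2 => exact Typ.conv ih1 ih2 hc

theorem legal_mono {P Q : Spec S} (hPQ : Sub P Q) {M : Tm S} (hl : Legal P M) : Legal Q M := by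
  obtain ⟨Γ, B, h1 | h1⟩ := hl
  · exact ⟨_, _, Or.inl (typ_mono hPQ h1)⟩
  · exact ⟨_, _, Or.inr (typ_mono hPQ h1)⟩

theorem wn_mono {P Q : Spec S} (hPQ : Sub P Q) (hQ : WN Q) : WN P :=
  fun M hl => hQ M (legal_mono hPQ hl)

theorem sn_mono {P Q : Spec S} (hPQ : Sub P Q) (hQ : SN Q) : SN P :=
  fun M hl => hQ M (legal_mono hPQ hl)

/-- Union of two specifications. -/
def join (P Q : Spec S) : Spec S := ⟨P.axs ∪ Q.axs, P.rules ∪ Q.rules⟩

theorem sub_join_left (P Q : Spec S) : Sub P (join P Q) :=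
  ⟨Set.subset_union_left, Set.subset_union_left⟩

theorem sub_join_right (P Q : Spec S) : Sub Q (join P Q) :=
  ⟨Set.subset_union_right, Set.subset_union_right⟩

theorem join_sub {P Q R : Spec S} (h1 : Sub P R) (h2 : Sub Q R) : Sub (join P Q) R :=
  ⟨Set.union_subset h1.1 h2.1, Set.union_subset h1.2 h2.2⟩

theorem fini_join {P Q : Spec S} (h1 : Fini P) (h2 : Fini Q) : Fini (join P Q) :=
  ⟨h1.1.union h2.1, h1.2.union h2.2⟩

/-- Every derivation uses finitely many axioms and rules. -/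
theorem typ_fin {P : Spec S} {Γ : List (Tm S)} {M B : Tm S} (ht : Typ P Γ M B) :
    ∃ P0, Sub P0 P ∧ Fini P0 ∧ Typ P0 Γ M B := by
  induction ht with
  | @ax s t ha =>
    exact ⟨⟨{(s, t)}, ∅⟩, ⟨by simpa using ha, Set.empty_subset _⟩,
      ⟨Set.finite_singleton _, Set.finite_empty⟩, Typ.ax rfl⟩
  | var _ ih =>
    obtain ⟨P0, h1, h2, h3⟩ := ih
    exact ⟨P0, h1, h2, Typ.var h3⟩
  | weak _ _ ih1 ih2 =>
    obtain ⟨P1, a1, a2, a3⟩ := ih1
    obtain ⟨P2, b1, b2, b3⟩ := ih2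
    exact ⟨join P1 P2, join_sub a1 b1, fini_join a2 b2,
      Typ.weak (typ_mono (sub_join_left _ _) a3) (typ_mono (sub_join_right _ _) b3)⟩
  | @prod Γ A B s₁ s₂ s₃ _ _ hr ih1 ih2 =>
    obtain ⟨P1, a1, a2, a3⟩ := ih1
    obtain ⟨P2, b1, b2, b3⟩ := ih2
    have hc : Sub (⟨∅, {(s₁, s₂, s₃)}⟩ : Spec S) P := ⟨Set.empty_subset _, by simpa using hr⟩
    refine ⟨join (join P1 P2) ⟨∅, {(s₁, s₂, s₃)}⟩, join_sub (join_sub a1 b1) hc,
      fini_join (fini_join a2 b2) ⟨Set.finite_empty, Set.finite_singleton _⟩, ?_⟩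
    refine Typ.prod (typ_mono (sub_join_left _ _) (typ_mono (sub_join_left _ _) a3))
      (typ_mono (sub_join_left _ _) (typ_mono (sub_join_right _ _) b3)) ?_
    exact Or.inr rfl
  | abs _ _ ih1 ih2 =>
    obtain ⟨P1, a1, a2, a3⟩ := ih1
    obtain ⟨P2, b1, b2, b3⟩ := ih2
    exact ⟨join P1 P2, join_sub a1 b1, fini_join a2 b2,
      Typ.abs (typ_mono (sub_join_left _ _) a3) (typ_mono (sub_join_right _ _) b3)⟩
  | app _ _ ih1 ih2 =>
    obtain ⟨P1, a1, a2, a3⟩ := ih1
    obtain ⟨P2, b1, b2, b3⟩ := ih2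
    exact ⟨join P1 P2, join_sub a1 b1, fini_join a2 b2,
      Typ.app (typ_mono (sub_join_left _ _) a3) (typ_mono (sub_join_right _ _) b3)⟩
  | conv _ _ hc ih1 ih2 =>
    obtain ⟨P1, a1, a2, a3⟩ := ih1
    obtain ⟨P2, b1, b2, b3⟩ := ih2
    exact ⟨join P1 P2, join_sub a1 b1, fini_join a2 b2,
      Typ.conv (typ_mono (sub_join_left _ _) a3) (typ_mono (sub_join_right _ _) b3) hc⟩

theorem legal_fin {P : Spec S} {M : Tm S} (hl : Legal P M) :
    ∃ P0, Sub P0 P ∧ Fini P0 ∧ Legal P0 M := by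
  obtain ⟨Γ, B, h1 | h1⟩ := hl
  · obtain ⟨P0, a, b, c⟩ := typ_fin h1
    exact ⟨P0, a, b, _, _, Or.inl c⟩
  · obtain ⟨P0, a, b, c⟩ := typ_fin h1
    exact ⟨P0, a, b, _, _, Or.inr c⟩

theorem wn_iff_fin (P : Spec S) : WN P ↔ ∀ P0, Sub P0 P → Fini P0 → WN P0 := by
  constructor
  · exact fun h P0 h0 _ => wn_mono h0 h
  · intro h M hl
    obtain ⟨P0, a, b, c⟩ := legal_fin hl
    exact h P0 a b M c

theorem sn_iff_fin (P : Spec S) : SN P ↔ ∀ P0, Sub P0 P → Fini P0 → SN P0 := by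
  constructor
  · exact fun h P0 h0 _ => sn_mono h0 h
  · intro h M hl
    obtain ⟨P0, a, b, c⟩ := legal_fin hl
    exact h P0 a b M c

end Vale.Agent.P340
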