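import Vale.Agent.P340.Main

/-!
# P340: critical counterexamples
-/

namespace Vale.Agent.P340

open Tm

universe u v

variable {S : Type u} {T : Type v}

/-- The sorts that occur in the axioms and rules of `P`. -/
def sorts (P : Spec S) : Set S :=
  {s | (∃ t, (s, t) ∈ P.axs ∨ (t, s) ∈ P.axs) ∨
    ∃ t r, (s, t, r) ∈ P.rules ∨ (t, s, r) ∈ P.rules ∨ (t, r, s) ∈ P.rules}

theorem sorts_sub (P : Spec S) : sorts P ⊆ occ P := by
  rintro s (⟨t, h | h⟩ | ⟨t, r, h | h | h⟩)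
  · exact Or.inl (Or.inl ⟨_, h, rfl⟩)
  · exact Or.inl (Or.inr ⟨_, h, rfl⟩)
  · exact Or.inr (Or.inl ⟨_, h, rfl⟩)
  · exact Or.inr (Or.inr (Or.inl ⟨_, h, rfl⟩))
  · exact Or.inr (Or.inr (Or.inr ⟨_, h, rfl⟩))

theorem sorts_nonempty {P : Spec S} {Γ : List (Tm S)} {M B : Tm S} (ht : Typ P Γ M B) :
    (sorts P).Nonempty := by
  induction ht with
  | @ax s t h => exact ⟨s, Or.inl ⟨t, Or.inl h⟩⟩
  | var _ ih => exact ih
  | weak _ _ ih _ => exact ih
  | prod _ _ _ ih _ => exact ih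
  | abs _ _ ih _ => exact ih
  | app _ _ ih _ => exact ih
  | conv _ _ _ ih _ => exact ih

theorem sorts_nonempty_of_not_sn {P : Spec S} (h : ¬ SN P) : (sorts P).Nonempty := by
  unfold SN at h
  push Not at h
  obtain ⟨M, ⟨Γ, B, h1 | h1⟩, _⟩ := h
  · exact sorts_nonempty h1
  · exact sorts_nonempty h1

/-- The counterexample restricted to its sorts. -/
theorem restrict {P : Spec S} (hP : Fini P) (hw : WN P) (hn : ¬ SN P) :
    ∃ P0 : Spec (Fin (sorts P).ncard), WN P0 ∧ ¬ SN P0 := by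
  classical
  obtain ⟨s0, hs0⟩ := sorts_nonempty_of_not_sn hn
  set F : Set S := sorts P with hFdef
  have hF : F.Finite := (occ_finite hP).subset (sorts_sub P)
  have : Finite F := hF
  have e : F ≃ Fin F.ncard := by
    have h1 : Nat.card F = F.ncard := rfl
    exact (Finite.equivFin F).trans (finCongr h1)
  let g : Fin F.ncard → S := fun i => (e.symm i : S)
  let r : S → Fin F.ncard := fun s => if hs : s ∈ F then e ⟨s, hs⟩ else e ⟨s0, hs0⟩
  have hgr : ∀ s ∈ F, g (r s) = s := by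
    intro s hs
    simp only [g, r, dif_pos hs, Equiv.symm_apply_apply]
  let P0 : Spec (Fin F.ncard) :=
    ⟨{x | (g x.1, g x.2) ∈ P.axs}, {x | (g x.1, g x.2.1, g x.2.2) ∈ P.rules}⟩
  have m1 : IsMorphism g P0 P := ⟨fun _ _ h => h, fun _ _ _ h => h⟩
  have m2 : IsMorphism r P P0 := by
    refine ⟨fun s t h => ?_, fun s t q h => ?_⟩
    · change (g (r s), g (r t)) ∈ P.axs
      rw [hgr s (Or.inl ⟨t, Or.inl h⟩), hgr t (Or.inl ⟨s, Or.inr h⟩)]
      exact h
    · change (g (r s), g (r t), g (r q)) ∈ P.rules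
      rw [hgr s (Or.inr ⟨t, q, Or.inl h⟩), hgr t (Or.inr ⟨s, q, Or.inr (Or.inl h)⟩),
        hgr q (Or.inr ⟨s, t, Or.inr (Or.inr h)⟩)]
      exact h
  exact ⟨P0, wn_of_morphism m1 hw, fun h => hn (sn_of_morphism m2 h)⟩

theorem fini_fin {n : ℕ} (P : Spec (Fin n)) : Fini P := ⟨Set.toFinite _, Set.toFinite _⟩

/-- A critical counterexample. -/
theorem critical (hex : ∃ (S : Type u) (P : Spec S), WN P ∧ ¬ SN P) :
    ∃ (n : ℕ) (P : Spec (Fin n)), WN P ∧ ¬ SN P ∧ sorts P = Set.univ ∧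
      (∀ Q, Sub Q P → Q ≠ P → SN Q) ∧
      ∀ (T : Type v) (k : Fin n → T) (Q : Spec T), IsMorphism k P Q → ¬ Function.Injective k →
        ¬ WN Q := by
  classical
  have hex1 : ∃ n, ∃ P : Spec (Fin n), WN P ∧ ¬ SN P := by
    obtain ⟨S, P, hw, hn⟩ := hex
    obtain ⟨n, _, P0, _, _, h3, h4, _⟩ := main_min P hw hn
    exact ⟨n, P0, h3, h4⟩
  obtain ⟨P0, hw0, hn0⟩ := Nat.find_spec hex1
  have hmin : ∀ m, m < Nat.find hex1 → ¬ ∃ P : Spec (Fin m), WN P ∧ ¬ SN P :=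
    fun m hm => Nat.find_min hex1 hm
  generalize Nat.find hex1 = n at P0 hw0 hn0 hmin
  obtain ⟨P, a, b, c, d⟩ := exists_minimal hn0
  have hw : WN P := wn_mono a hw0
  refine ⟨n, P, hw, c, ?_, d, ?_⟩
  · by_contra hne
    have hlt : (sorts P).ncard < n := by
      have h1 : (sorts P).ncard < (Set.univ : Set (Fin n)).ncard :=
        Set.ncard_lt_ncard (Set.ssubset_univ_iff.2 hne) Set.finite_univ
      rwa [Set.ncard_univ, Nat.card_eq_fintype_card, Fintype.card_fin] at h1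
    exact hmin _ hlt (restrict b hw c)
  · intro T k Q hm hk hQ
    let Q1 : Spec T := ⟨(fun x => (k x.1, k x.2)) '' P.axs,
      (fun x => (k x.1, k x.2.1, k x.2.2)) '' P.rules⟩
    have m3 : IsMorphism k P Q1 :=
      ⟨fun s t h => ⟨(s, t), h, rfl⟩, fun s t q h => ⟨(s, t, q), h, rfl⟩⟩
    have hsub : Sub Q1 Q := by
      refine ⟨?_, ?_⟩
      · rintro _ ⟨x, hx, rfl⟩
        exact hm.1 _ _ hx
      · rintro _ ⟨x, hx, rfl⟩
        exact hm.2 _ _ _ hx
    have hfin : Fini Q1 := ⟨b.1.image _, b.2.image _⟩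
    have hn1 : ¬ SN Q1 := fun h => c (sn_of_morphism m3 h)
    have hocc : sorts Q1 ⊆ Set.range k := by
      rintro s (⟨t, ⟨x, _, hx⟩ | ⟨x, _, hx⟩⟩ | ⟨t, r, ⟨x, _, hx⟩ | ⟨x, _, hx⟩ | ⟨x, _, hx⟩⟩)
      · exact ⟨x.1, (Prod.ext_iff.1 hx).1⟩
      · exact ⟨x.2, (Prod.ext_iff.1 hx).2⟩
      · exact ⟨x.1, (Prod.ext_iff.1 hx).1⟩
      · exact ⟨x.2.1, (Prod.ext_iff.1 (Prod.ext_iff.1 hx).2).1⟩
      · exact ⟨x.2.2, (Prod.ext_iff.1 (Prod.ext_iff.1 hx).2).2⟩
    have hlt : (sorts Q1).ncard < n := by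
      refine lt_of_le_of_lt (Set.ncard_le_ncard hocc (Set.finite_range k)) ?_
      by_contra hcon
      apply hk
      have h1 : (Set.range k).ncard = (Finset.univ.image k).card := by
        rw [← Set.ncard_coe_finset, Finset.coe_image, Finset.coe_univ, Set.image_univ]
      have h2 : (Finset.univ.image k).card = (Finset.univ : Finset (Fin n)).card := by
        refine le_antisymm Finset.card_image_le ?_
        rw [Finset.card_univ, Fintype.card_fin, ← h1]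
        omega
      have h3 := Finset.card_image_iff.1 h2
      rwa [Finset.coe_univ, Set.injOn_univ] at h3
    exact hmin _ hlt (restrict hfin (wn_mono hsub hQ) hn1)

end Vale.Agent.P340
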