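import Mathlib

/-!
# P340: pure type systems (definitions)

Expressions modulo renaming of bound variables are written with de Bruijn indices.
-/

namespace Vale.Agent.P340

universe u v

/-- Expressions over the set `S` of sorts, with de Bruijn indices: variables, sorts, applications
`M N`, abstractions `λ x : A. M` and products `Π x : A. B`. -/
inductive Tm (S : Type u) : Type u where
  | var : ℕ → Tm S
  | sort : S → Tm S
  | app : Tm S → Tm S → Tm S
  | lam : Tm S → Tm S → Tm S
  | pi : Tm S → Tm S → Tm S

namespace Tm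

/-- Renumbering that makes room for one new variable at position `k`. -/
def lift {S : Type u} : ℕ → Tm S → Tm S
  | k, var n => if n < k then var n else var (n + 1)
  | _, sort s => sort s
  | k, app M N => app (lift k M) (lift k N)
  | k, lam A M => lam (lift k A) (lift (k + 1) M)
  | k, pi A B => pi (lift k A) (lift (k + 1) B)

/-- Substitution of `N` for the variable number `k` (which disappears). -/
def subst {S : Type u} : ℕ → Tm S → Tm S → Tm S
  | k, N, var n => if n < k then var n else if n = k then N else var (n - 1)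
  | _, _, sort s => sort s
  | k, N, app P Q => app (subst k N P) (subst k N Q)
  | k, N, lam A M => lam (subst k N A) (subst (k + 1) (lift 0 N) M)
  | k, N, pi A B => pi (subst k N A) (subst (k + 1) (lift 0 N) B)

end Tm

open Tm

/-- One step of beta reduction, in any subexpression. -/
inductive Step {S : Type u} : Tm S → Tm S → Prop where
  | beta (A M N : Tm S) : Step (app (lam A M) N) (subst 0 N M)
  | appL {M M' : Tm S} (N : Tm S) : Step M M' → Step (app M N) (app M' N)
  | appR (M : Tm S) {N N' : Tm S} : Step N N' → Step (app M N) (app M N')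
  | lamL {A A' : Tm S} (M : Tm S) : Step A A' → Step (lam A M) (lam A' M)
  | lamR (A : Tm S) {M M' : Tm S} : Step M M' → Step (lam A M) (lam A M')
  | piL {A A' : Tm S} (B : Tm S) : Step A A' → Step (pi A B) (pi A' B)
  | piR (A : Tm S) {B B' : Tm S} : Step B B' → Step (pi A B) (pi A B')

/-- A pure type specification with set of sorts `S`: its axioms and its rules. -/
structure Spec (S : Type u) where
  axs : Set (S × S)
  rules : Set (S × S × S)

/-- The typing judgment `Γ ⊢ M : B` of the specification `P`; the last entered variable is the head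
of the context `Γ` and has number `0`. -/
inductive Typ {S : Type u} (P : Spec S) : List (Tm S) → Tm S → Tm S → Prop where
  | ax {s t : S} : (s, t) ∈ P.axs → Typ P [] (sort s) (sort t)
  | var {Γ : List (Tm S)} {A : Tm S} {s : S} :
      Typ P Γ A (sort s) → Typ P (A :: Γ) (var 0) (lift 0 A)
  | weak {Γ : List (Tm S)} {M B A : Tm S} {s : S} :
      Typ P Γ M B → Typ P Γ A (sort s) → Typ P (A :: Γ) (lift 0 M) (lift 0 B)
  | prod {Γ : List (Tm S)} {A B : Tm S} {s₁ s₂ s₃ : S} :
      Typ P Γ A (sort s₁) → Typ P (A :: Γ) B (sort s₂) → (s₁, s₂, s₃) ∈ P.rules →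
        Typ P Γ (pi A B) (sort s₃)
  | abs {Γ : List (Tm S)} {A M B : Tm S} {s : S} :
      Typ P (A :: Γ) M B → Typ P Γ (pi A B) (sort s) → Typ P Γ (lam A M) (pi A B)
  | app {Γ : List (Tm S)} {M N A B : Tm S} :
      Typ P Γ M (pi A B) → Typ P Γ N A → Typ P Γ (app M N) (subst 0 N B)
  | conv {Γ : List (Tm S)} {M A B : Tm S} {s : S} :
      Typ P Γ M A → Typ P Γ B (sort s) → Relation.EqvGen Step A B → Typ P Γ M B

/-- `M` is the subject or the type of a derivable judgment. -/
def Legal {S : Type u} (P : Spec S) (M : Tm S) : Prop :=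
  ∃ Γ B, Typ P Γ M B ∨ Typ P Γ B M

/-- Every legal expression reduces to a normal form. -/
def WN {S : Type u} (P : Spec S) : Prop :=
  ∀ M, Legal P M → ∃ N, Relation.ReflTransGen Step M N ∧ ∀ N', ¬ Step N N'

/-- No legal expression starts an infinite reduction sequence. -/
def SN {S : Type u} (P : Spec S) : Prop :=
  ∀ M, Legal P M → ¬ ∃ f : ℕ → Tm S, f 0 = M ∧ ∀ n, Step (f n) (f (n + 1))

/-- `P ≤ Q`: the axioms and rules of `P` are axioms and rules of `Q` (same sorts). -/
def Sub {S : Type u} (P Q : Spec S) : Prop := P.axs ⊆ Q.axs ∧ P.rules ⊆ Q.rules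

/-- Finitely many axioms and rules. -/
def Fini {S : Type u} (P : Spec S) : Prop := P.axs.Finite ∧ P.rules.Finite

/-- The map `h` of sorts sends axioms of `P` to axioms of `Q` and rules of `P` to rules of `Q`. -/
def IsMorphism {S : Type u} {T : Type v} (h : S → T) (P : Spec S) (Q : Spec T) : Prop :=
  (∀ s t, (s, t) ∈ P.axs → (h s, h t) ∈ Q.axs) ∧
    ∀ s t r, (s, t, r) ∈ P.rules → (h s, h t, h r) ∈ Q.rules

end Vale.Agent.P340
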