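import Vale.Agent.P340.Basic

/-!
# P340: minimal finite counterexamples
-/

namespace Vale.Agent.P340

open Tm

universe u v

variable {S : Type u} {T : Type v}

theorem nonempty_of_typ {P : Spec S} {Γ : List (Tm S)} {M B : Tm S} (ht : Typ P Γ M B) :
    Nonempty S := by
  induction ht with
  | @ax s t _ => exact ⟨s⟩
  | var _ ih => exact ih
  | weak _ _ ih _ => exact ih
  | prod _ _ _ ih _ => exact ih
  | abs _ _ ih _ => exact ih
  | app _ _ ih _ => exact ih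
  | conv _ _ _ ih _ => exact ih

theorem nonempty_of_not_sn {P : Spec S} (h : ¬ SN P) : Nonempty S := by
  unfold SN at h
  push Not at h
  obtain ⟨M, ⟨Γ, B, h1 | h1⟩, _⟩ := h
  · exact nonempty_of_typ h1
  · exact nonempty_of_typ h1

/-- The number of axioms and rules. -/
noncomputable def size (P : Spec S) : ℕ := P.axs.ncard + P.rules.ncard

theorem fini_mono {P Q : Spec S} (h : Sub P Q) (hQ : Fini Q) : Fini P :=
  ⟨hQ.1.subset h.1, hQ.2.subset h.2⟩

theorem sub_trans {P Q R : Spec S} (h1 : Sub P Q) (h2 : Sub Q R) : Sub P R :=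
  ⟨h1.1.trans h2.1, h1.2.trans h2.2⟩

theorem size_lt {P Q : Spec S} (h : Sub Q P) (hne : Q ≠ P) (hP : Fini P) : size Q < size P := by
  have h1 : Q.axs.ncard ≤ P.axs.ncard := Set.ncard_le_ncard h.1 hP.1
  have h2 : Q.rules.ncard ≤ P.rules.ncard := Set.ncard_le_ncard h.2 hP.2
  by_contra hcon
  unfold size at hcon
  have e1 : Q.axs = P.axs := Set.eq_of_subset_of_ncard_le h.1 (by omega) hP.1
  have e2 : Q.rules = P.rules := Set.eq_of_subset_of_ncard_le h.2 (by omega) hP.2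
  apply hne
  cases P
  cases Q
  simp only at e1 e2
  rw [e1, e2]

/-- A minimal finite part which is not strongly normalizing. -/
theorem exists_minimal {P : Spec S} (h : ¬ SN P) :
    ∃ P0, Sub P0 P ∧ Fini P0 ∧ ¬ SN P0 ∧ ∀ Q, Sub Q P0 → Q ≠ P0 → SN Q := by
  classical
  rw [sn_iff_fin] at h
  push Not at h
  have hex : ∃ n, ∃ P0, size P0 = n ∧ Sub P0 P ∧ Fini P0 ∧ ¬ SN P0 := by
    obtain ⟨P0, a, b, c⟩ := h
    exact ⟨size P0, P0, rfl, a, b, c⟩
  obtain ⟨P0, h0, a, b, c⟩ := Nat.find_spec hex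
  refine ⟨P0, a, b, c, fun Q hQ hne => ?_⟩
  by_contra hcon
  have hlt := size_lt hQ hne b
  rw [h0] at hlt
  exact Nat.find_min hex hlt ⟨Q, rfl, sub_trans hQ a, fini_mono hQ b, hcon⟩

/-- The sorts that occur. -/
def occ (P : Spec S) : Set S :=
  (Prod.fst '' P.axs ∪ Prod.snd '' P.axs) ∪
    ((fun x => x.1) '' P.rules ∪ ((fun x => x.2.1) '' P.rules ∪ (fun x => x.2.2) '' P.rules))

theorem occ_finite {P : Spec S} (h : Fini P) : (occ P).Finite :=
  ((h.1.image _).union (h.1.image _)).union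
    ((h.2.image _).union ((h.2.image _).union (h.2.image _)))

/-- A non strongly normalizing finite specification lives on finitely many sorts. -/
theorem transfer {P : Spec S} (hP : Fini P) (hw : WN P) (hn : ¬ SN P)
    (hmin : ∀ Q, Sub Q P → Q ≠ P → SN Q) :
    ∃ (n : ℕ) (h : Fin n → S) (P0 : Spec (Fin n)), Function.Injective h ∧ IsMorphism h P0 P ∧
      WN P0 ∧ ¬ SN P0 ∧ ∀ Q, Sub Q P0 → Q ≠ P0 → SN Q := by
  classical
  obtain ⟨s0⟩ := nonempty_of_not_sn hn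
  have hF : (insert s0 (occ P)).Finite := (occ_finite hP).insert s0
  set F : Set S := insert s0 (occ P) with hFdef
  have : Finite F := hF
  obtain ⟨n, ⟨e⟩⟩ := Finite.exists_equiv_fin F
  let g : Fin n → S := fun i => (e.symm i : S)
  have hg : Function.Injective g := fun i j hij => e.symm.injective (Subtype.ext hij)
  let r : S → Fin n := fun s => if hs : s ∈ F then e ⟨s, hs⟩ else e ⟨s0, Set.mem_insert _ _⟩
  have hgr : ∀ s ∈ F, g (r s) = s := by
    intro s hs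
    simp only [g, r, dif_pos hs, Equiv.symm_apply_apply]
  let P0 : Spec (Fin n) := ⟨{x | (g x.1, g x.2) ∈ P.axs}, {x | (g x.1, g x.2.1, g x.2.2) ∈ P.rules}⟩
  have m1 : IsMorphism g P0 P := ⟨fun _ _ h => h, fun _ _ _ h => h⟩
  have a1 : ∀ s t, (s, t) ∈ P.axs → s ∈ F ∧ t ∈ F := fun s t h =>
    ⟨Or.inr (Or.inl (Or.inl ⟨_, h, rfl⟩)), Or.inr (Or.inl (Or.inr ⟨_, h, rfl⟩))⟩
  have a2 : ∀ s t q, (s, t, q) ∈ P.rules → s ∈ F ∧ t ∈ F ∧ q ∈ F := fun s t q h =>
    ⟨Or.inr (Or.inr (Or.inl ⟨_, h, rfl⟩)), Or.inr (Or.inr (Or.inr (Or.inl ⟨_, h, rfl⟩))),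
      Or.inr (Or.inr (Or.inr (Or.inr ⟨_, h, rfl⟩)))⟩
  have m2 : IsMorphism r P P0 := by
    refine ⟨fun s t h => ?_, fun s t q h => ?_⟩
    · have := a1 s t h
      change (g (r s), g (r t)) ∈ P.axs
      rw [hgr s this.1, hgr t this.2]
      exact h
    · have := a2 s t q h
      change (g (r s), g (r t), g (r q)) ∈ P.rules
      rw [hgr s this.1, hgr t this.2.1, hgr q this.2.2]
      exact h
  refine ⟨n, g, P0, hg, m1, wn_of_morphism m1 hw, fun h => hn (sn_of_morphism m2 h), ?_⟩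
  intro Q hQ hne
  let Q1 : Spec S := ⟨(fun x => (g x.1, g x.2)) '' Q.axs,
    (fun x => (g x.1, g x.2.1, g x.2.2)) '' Q.rules⟩
  have m3 : IsMorphism g Q Q1 := ⟨fun s t h => ⟨(s, t), h, rfl⟩, fun s t q h => ⟨(s, t, q), h, rfl⟩⟩
  refine sn_of_morphism m3 (hmin Q1 ⟨?_, ?_⟩ ?_)
  · rintro _ ⟨x, hx, rfl⟩
    exact hQ.1 hx
  · rintro _ ⟨x, hx, rfl⟩
    exact hQ.2 hx
  · intro heq
    apply hne
    have e1 : Q1.axs = P.axs := by rw [heq]
    have e2 : Q1.rules = P.rules := by rw [heq]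
    have f1 : Q.axs = P0.axs := by
      refine Set.Subset.antisymm hQ.1 fun x hx => ?_
      have hx1 : (g x.1, g x.2) ∈ Q1.axs := by rw [e1]; exact hx
      obtain ⟨y, hy, hxy⟩ := hx1
      simp only [Prod.mk.injEq] at hxy
      have : y = x := Prod.ext (hg hxy.1) (hg hxy.2)
      exact this ▸ hy
    have f2 : Q.rules = P0.rules := by
      refine Set.Subset.antisymm hQ.2 fun x hx => ?_
      have hx1 : (g x.1, g x.2.1, g x.2.2) ∈ Q1.rules := by rw [e2]; exact hx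
      obtain ⟨y, hy, hxy⟩ := hx1
      simp only [Prod.mk.injEq] at hxy
      have : y = x := Prod.ext (hg hxy.1) (Prod.ext (hg hxy.2.1) (hg hxy.2.2))
      exact this ▸ hy
    cases Q
    simp only at f1 f2
    rw [f1, f2]

theorem main_min (P : Spec S) (hw : WN P) (hn : ¬ SN P) :
    ∃ (n : ℕ) (h : Fin n → S) (P0 : Spec (Fin n)), Function.Injective h ∧ IsMorphism h P0 P ∧
      WN P0 ∧ ¬ SN P0 ∧ ∀ Q, Sub Q P0 → Q ≠ P0 → SN Q := by
  obtain ⟨P1, a, b, c, d⟩ := exists_minimal hn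
  obtain ⟨n, h, P0, h1, h2, h3, h4, h5⟩ := transfer b (wn_mono a hw) c d
  refine ⟨n, h, P0, h1, ⟨fun s t hst => a.1 (h2.1 s t hst), fun s t q hst => a.2 (h2.2 s t q hst)⟩,
    h3, h4, h5⟩

theorem main_iff : (∀ (S : Type u) (P : Spec S), WN P → SN P) ↔
    ∀ (n : ℕ) (P : Spec (Fin n)), WN P → SN P := by
  constructor
  · intro h n P hP
    let P1 : Spec (ULift.{u} (Fin n)) :=
      ⟨{x | (x.1.down, x.2.down) ∈ P.axs}, {x | (x.1.down, x.2.1.down, x.2.2.down) ∈ P.rules}⟩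
    have m1 : IsMorphism ULift.down P1 P := ⟨fun _ _ h => h, fun _ _ _ h => h⟩
    have m2 : IsMorphism ULift.up P P1 := ⟨fun _ _ h => h, fun _ _ _ h => h⟩
    exact sn_of_morphism m2 (h _ P1 (wn_of_morphism m1 hP))
  · intro h S P hP
    by_contra hn
    obtain ⟨n, _, P0, _, _, h3, h4, _⟩ := main_min P hP hn
    exact h4 (h n P0 h3)

end Vale.Agent.P340
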