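import Vale.Agent.P340.Critical

/-!
# P340: every rule of a critical counterexample is usable
-/

namespace Vale.Agent.P340

open Tm

universe u v

variable {S : Type u}

/-- A rule whose premises are never derivable can be removed. -/
theorem typ_drop {P : Spec S} {s₁ s₂ s₃ : S}
    (h : ∀ (Γ : List (Tm S)) (A B : Tm S), Typ P Γ A (sort s₁) → ¬ Typ P (A :: Γ) B (sort s₂))
    {Γ : List (Tm S)} {M B : Tm S} (ht : Typ P Γ M B) :
    Typ ⟨P.axs, P.rules \ {(s₁, s₂, s₃)}⟩ Γ M B := by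
  induction ht with
  | ax ha => exact Typ.ax ha
  | var _ ih => exact Typ.var ih
  | weak _ _ ih1 ih2 => exact Typ.weak ih1 ih2
  | @prod Γ A B t₁ t₂ t₃ h1 h2 hr ih1 ih2 =>
    refine Typ.prod ih1 ih2 ⟨hr, fun heq => ?_⟩
    have heq' : (t₁, t₂, t₃) = (s₁, s₂, s₃) := heq
    simp only [Prod.mk.injEq] at heq'
    obtain ⟨rfl, rfl, -⟩ := heq'
    exact h _ _ _ h1 h2
  | abs _ _ ih1 ih2 => exact Typ.abs ih1 ih2
  | app _ _ ih1 ih2 => exact Typ.app ih1 ih2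
  | conv _ _ hc ih1 ih2 => exact Typ.conv ih1 ih2 hc

theorem usable {P : Spec S} (hn : ¬ SN P) (hmin : ∀ Q, Sub Q P → Q ≠ P → SN Q)
    {s₁ s₂ s₃ : S} (hr : (s₁, s₂, s₃) ∈ P.rules) :
    ∃ (Γ : List (Tm S)) (A B : Tm S), Typ P Γ A (sort s₁) ∧ Typ P (A :: Γ) B (sort s₂) := by
  by_contra hcon
  push Not at hcon
  apply hn
  have h1 : SN (⟨P.axs, P.rules \ {(s₁, s₂, s₃)}⟩ : Spec S) := by
    refine hmin _ ⟨subset_rfl, Set.sdiff_subset⟩ fun heq => ?_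
    have h2 : (s₁, s₂, s₃) ∈ (⟨P.axs, P.rules \ {(s₁, s₂, s₃)}⟩ : Spec S).rules := by
      rw [heq]; exact hr
    exact h2.2 rfl
  intro M hM
  apply h1 M
  obtain ⟨Γ, B, h2 | h2⟩ := hM
  · exact ⟨Γ, B, Or.inl (typ_drop hcon h2)⟩
  · exact ⟨Γ, B, Or.inr (typ_drop hcon h2)⟩

/-- Expressions that are variables or sorts. -/
def Atom (M : Tm S) : Prop := (∃ n, M = var n) ∨ ∃ s, M = sort s

theorem atom_lift {M : Tm S} (h : Atom M) (k : ℕ) : Atom (lift k M) := by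
  obtain ⟨n, rfl⟩ | ⟨s, rfl⟩ := h
  · left
    simp only [lift]
    split_ifs
    · exact ⟨_, rfl⟩
    · exact ⟨_, rfl⟩
  · exact Or.inr ⟨s, rfl⟩

theorem typ_atom {P : Spec S} (hP : P.rules = ∅) {Γ : List (Tm S)} {M B : Tm S}
    (ht : Typ P Γ M B) : Atom M ∧ Atom B := by
  induction ht with
  | @ax s t _ => exact ⟨Or.inr ⟨s, rfl⟩, Or.inr ⟨t, rfl⟩⟩
  | var _ ih => exact ⟨Or.inl ⟨0, rfl⟩, atom_lift ih.1 0⟩
  | weak _ _ ih1 _ => exact ⟨atom_lift ih1.1 0, atom_lift ih1.2 0⟩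
  | prod _ _ hr => rw [hP] at hr; exact hr.elim
  | abs _ _ _ ih2 =>
    obtain ⟨n, h⟩ | ⟨s, h⟩ := ih2.1
    · cases h
    · cases h
  | app _ _ ih1 _ =>
    obtain ⟨n, h⟩ | ⟨s, h⟩ := ih1.2
    · cases h
    · cases h
  | conv _ _ _ ih1 ih2 => exact ⟨ih1.1, ih2.1⟩

theorem sn_of_no_rules {P : Spec S} (hP : P.rules = ∅) : SN P := by
  rintro M ⟨Γ, B, h⟩ ⟨f, h0, hf⟩
  have hM : Atom M := by
    rcases h with h | h
    · exact (typ_atom hP h).1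
    · exact (typ_atom hP h).2
  have h1 := hf 0
  rw [h0] at h1
  obtain ⟨n, rfl⟩ | ⟨s, rfl⟩ := hM
  · cases h1
  · cases h1

end Vale.Agent.P340
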